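import Vale.Agent.P340.Main

namespace Vale.Agent.Results.P340.BGK

open Vale.Agent.P340

universe u

/-- The Barendregt-Geuvers-Klop conjecture: every weakly normalizing pure type system is
strongly normalizing. -/
theorem result {S : Type u} (P : PTS S) (h : WeaklyNormalizing P) : StronglyNormalizing P :=
  bgk P h

end Vale.Agent.Results.P340.BGK
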